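import Vale.Agent.P043.Lattice

open scoped BigOperators

namespace Vale.Agent.Results.P043.A1Codim

/-- `A ⊕ F = G`: every `x ∈ G` has a unique expression `x = a + f` with `a ∈ A`, `f ∈ F`. -/
def IsTiling {G : Type*} [AddCommGroup G] (A : Set G) (F : Finset G) : Prop :=
  ∀ x : G, ∃! p : G × G, p.1 ∈ A ∧ p.2 ∈ F ∧ p.1 + p.2 = x

/-- `A + h = A` for all `h` in some subgroup of finite index. -/
def IsPeriodic {G : Type*} [AddCommGroup G] (A : Set G) : Prop :=
  ∃ H : AddSubgroup G, H.FiniteIndex ∧ ∀ h ∈ H, (fun a => a + h) '' A = A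

theorem famTiles_iff {G : Type*} [AddCommGroup G] (A : Set G) (F : Finset G) :
    IsTiling A F ↔ Vale.Agent.P043.FamTiles A (fun f : F => (f : G)) := by
  classical
  constructor
  · intro h x
    obtain ⟨⟨a, f⟩, ⟨ha, hf, hx⟩, huniq⟩ := h x
    simp only at ha hf hx
    rw [Finset.sum_eq_single (⟨f, hf⟩ : F)]
    · have e : x - f = a := by rw [← hx]; abel
      simp only [e]
      exact Set.indicator_of_mem ha _
    · intro g _ hg
      apply Set.indicator_of_notMem
      intro hmem
      have := huniq (x - g, g) ⟨hmem, g.2, sub_add_cancel x (g : G)⟩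
      have h2 : (g : G) = f := congrArg Prod.snd this
      exact hg (Subtype.ext h2)
    · intro h1; exact absurd (Finset.mem_univ _) h1
  · intro h x
    obtain ⟨f, _, hf⟩ := Finset.exists_ne_zero_of_sum_ne_zero
      (by rw [h x]; exact one_ne_zero :
        ∑ i : F, A.indicator (fun _ => (1 : ℤ)) (x - i) ≠ 0)
    have hfA : x - f ∈ A := by
      by_contra hc
      exact hf (Set.indicator_of_notMem hc _)
    refine ⟨(x - f, f), ⟨hfA, f.2, sub_add_cancel x (f : G)⟩, ?_⟩
    rintro ⟨a, g⟩ ⟨ha, hg, hx⟩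
    simp only at ha hg hx
    have hgA : x - g ∈ A := by
      have e : x - g = a := by rw [← hx]; abel
      rw [e]; exact ha
    by_cases hfg : (⟨g, hg⟩ : F) = f
    · have h1 : g = (f : G) := congrArg Subtype.val hfg
      rw [← h1, ← hx]
      simp
    · exfalso
      have h2 : ∑ i ∈ ({⟨g, hg⟩, f} : Finset F), A.indicator (fun _ => (1 : ℤ)) (x - i) ≤
          ∑ i : F, A.indicator (fun _ => (1 : ℤ)) (x - i) :=
        Finset.sum_le_sum_of_subset_of_nonneg (Finset.subset_univ _)
          (fun i _ _ => Set.indicator_nonneg (fun _ _ => by norm_num) _)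
      rw [Finset.sum_pair hfg] at h2
      have h3 := h x
      rw [h3, Set.indicator_of_mem hgA, Set.indicator_of_mem hfA] at h2
      norm_num at h2

theorem periodic_of_mul {G : Type*} [AddCommGroup G] [AddGroup.FG G] (B : Set G) (M : ℕ)
    (hM : 0 < M) (h : ∀ x y, (x ∈ B ↔ x + M • y ∈ B)) : IsPeriodic B := by
  haveI := Vale.Agent.P043.finite_quot (G := G) M hM
  refine ⟨Vale.Agent.P043.mulSub G M, AddSubgroup.finiteIndex_of_finite_quotient, ?_⟩
  intro g hg
  obtain ⟨y, rfl⟩ := Vale.Agent.P043.mem_mulSub.1 hg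
  ext x
  constructor
  · rintro ⟨b, hb, rfl⟩
    exact (h b y).1 hb
  · intro hx
    refine ⟨x - M • y, ?_, by simp⟩
    rw [h (x - M • y) y, sub_add_cancel]
    exact hx

/-- Let `F ⊆ ℤ^d` be finite, and suppose that every linear subspace `W` of `ℚ^d` of dimension
at most `d - 2` has a translate meeting `F` in exactly one point. If `F` tiles `ℤ^d`
by translations, then `F` admits a periodic tiling. -/
theorem result (d : ℕ) (F : Finset (Fin d → ℤ))
    (hF : ∀ W : Submodule ℚ (Fin d → ℚ), Module.finrank ℚ W + 2 ≤ d →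
      ∃ f ∈ F, ∀ g ∈ F, (fun i => ((g i - f i : ℤ) : ℚ)) ∈ W → g = f)
    (hT : ∃ A : Set (Fin d → ℤ), IsTiling A F) :
    ∃ B : Set (Fin d → ℤ), IsTiling B F ∧ IsPeriodic B := by
  classical
  obtain ⟨A, hA⟩ := hT
  rw [famTiles_iff] at hA
  rcases lt_or_ge 1 (Fintype.card F) with hcard | hcard
  · have hyp : Vale.Agent.P043.SpanHyp (fun f : F => (f : Fin d → ℤ)) := by
      apply Vale.Agent.P043.spanHyp_of_codim
      intro γ hγ
      by_contra hcon
      push Not at hcon
      obtain ⟨f, hf, hiso⟩ := hF _ hcon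
      have h1 := hiso (γ ⟨f, hf⟩) (γ ⟨f, hf⟩).2 (by
        have h2 : Vale.Agent.P043.toQ ((f : Fin d → ℤ) - (γ ⟨f, hf⟩ : Fin d → ℤ)) ∈
            Submodule.span ℚ (Set.range fun f : F =>
              Vale.Agent.P043.toQ ((f : Fin d → ℤ) - (γ f : Fin d → ℤ))) :=
          Submodule.subset_span ⟨⟨f, hf⟩, rfl⟩
        have h3 := Submodule.neg_mem _ h2
        rw [← Vale.Agent.P043.toQ_neg, neg_sub] at h3
        exact h3)
      exact hγ ⟨f, hf⟩ (Subtype.ext h1)
    obtain ⟨B, M, hM, hB, hper⟩ := Vale.Agent.P043.general hyp hcard hA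
    exact ⟨B, (famTiles_iff B F).2 hB, periodic_of_mul B M hM hper⟩
  · -- at most one element
    refine ⟨Set.univ, ?_, periodic_of_mul _ 1 one_pos (by simp)⟩
    rw [famTiles_iff]
    intro x
    have h0 := hA 0
    have hne : Fintype.card F ≠ 0 := by
      intro h1
      haveI := Fintype.card_eq_zero_iff.1 h1
      simp at h0
    have h1 : Fintype.card F = 1 := by omega
    simp only [Set.indicator_univ, Finset.sum_const, Finset.card_univ, h1, one_smul]

end Vale.Agent.Results.P043.A1Codim
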