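import Vale.Agent.P043.Z4.T20
import Vale.Agent.P043.PTC.Euclid4

open MeasureTheory

namespace Vale.Agent.Results.P043.DimFour

/-- `A ⊕ F = G`: every `x ∈ G` has a unique expression `x = a + f` with `a ∈ A`, `f ∈ F`. -/
def IsTiling {G : Type*} [AddCommGroup G] (A : Set G) (F : Finset G) : Prop :=
  ∀ x : G, ∃! p : G × G, p.1 ∈ A ∧ p.2 ∈ F ∧ p.1 + p.2 = x

/-- `A + h = A` for all `h` in some subgroup of finite index. -/
def IsPeriodic {G : Type*} [AddCommGroup G] (A : Set G) : Prop :=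
  ∃ H : AddSubgroup G, H.FiniteIndex ∧ ∀ h ∈ H, (fun a => a + h) '' A = A

/-- The translates `Ω + a`, `a ∈ A`, cover `ℝ^d` up to a null set and pairwise intersect in
null sets. -/
def IsTilingR {d : ℕ} (A Ω : Set (Fin d → ℝ)) : Prop :=
  volume (⋃ a ∈ A, (fun x => a + x) '' Ω)ᶜ = 0 ∧
    ∀ a ∈ A, ∀ a' ∈ A, a ≠ a' →
      volume (((fun x => a + x) '' Ω) ∩ ((fun x => a' + x) '' Ω)) = 0

/-- `A + l = A` for all `l` in some lattice of rank `d`: the integer span of a real basis. -/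
def IsPeriodicR {d : ℕ} (A : Set (Fin d → ℝ)) : Prop :=
  ∃ v : Module.Basis (Fin d) ℝ (Fin d → ℝ),
    ∀ l ∈ Submodule.span ℤ (Set.range v), (fun a => a + l) '' A = A

/-- `F + [0,1)^d`, the union of the half-open unit cubes with corners in `F`. -/
def Cubes {d : ℕ} (F : Finset (Fin d → ℤ)) : Set (Fin d → ℝ) :=
  {x | (fun k => ⌊x k⌋) ∈ F}

/-- **The periodic tiling conjecture fails in every dimension `d ≥ 4`**, both in `ℤ^d` and
in `ℝ^d`. For every `d ≥ 4` there is a finite `F ⊆ ℤ^d` that tiles `ℤ^d` by translations but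
admits no periodic tiling, and such that the bounded measurable set `F + [0,1)^d` tiles `ℝ^d` by
translations up to null sets but admits no periodic tiling. -/
theorem result (d : ℕ) (hd : 4 ≤ d) :
    ∃ F : Finset (Fin d → ℤ),
      ((∃ A : Set (Fin d → ℤ), IsTiling A F) ∧
        ∀ A : Set (Fin d → ℤ), IsTiling A F → ¬ IsPeriodic A) ∧
      (Bornology.IsBounded (Cubes F) ∧ MeasurableSet (Cubes F) ∧ 0 < volume (Cubes F) ∧
        (∃ A : Set (Fin d → ℝ), IsTilingR A (Cubes F)) ∧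
        ∀ A : Set (Fin d → ℝ), IsTilingR A (Cubes F) → ¬ IsPeriodicR A) := by
  obtain ⟨F, h1, h2⟩ := Vale.Agent.P043.Z4.periodicTiling_fails d hd
  have h3 : ∀ A : Set (Fin d → ℤ), IsTiling A F → ¬ IsPeriodic A :=
    fun A hA hP => h2 ⟨A, hA, hP⟩
  obtain ⟨e1, e2, e3, e4, e5⟩ := Vale.Agent.P043.PTC.euclid_of_bad (F := F) h1 h3
  exact ⟨F, ⟨h1, h3⟩, e2, e1, e3, e4, e5⟩

end Vale.Agent.Results.P043.DimFour
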